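import Vale.Agent.H56.LangPlaut.Defs

namespace Vale.Agent.H56.LangPlaut

open Metric Set

section general

variable {E : Type*} [PseudoMetricSpace E]

theorem EmbedsWith.mono_D {X : Set E} {k : ℕ} {D D' : ℝ} (h : EmbedsWith X k D) (hD : D ≤ D') :
    EmbedsWith X k D' := by
  obtain ⟨f, a, ha, hf⟩ := h
  refine ⟨f, a, ha, fun x hx y hy => ⟨(hf x hx y hy).1, (hf x hx y hy).2.trans ?_⟩⟩
  have : 0 ≤ a * dist x y := mul_nonneg ha.le dist_nonneg
  nlinarith

theorem EmbedsWith.subset {X Y : Set E} {k : ℕ} {D : ℝ} (h : EmbedsWith X k D) (hY : Y ⊆ X) :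
    EmbedsWith Y k D := by
  obtain ⟨f, a, ha, hf⟩ := h
  exact ⟨f, a, ha, fun x hx y hy => hf x (hY hx) y (hY hy)⟩

theorem embedsWith_of_subsingleton {X : Set E} (hX : ∀ x ∈ X, ∀ y ∈ X, dist x y = 0)
    (k : ℕ) (D : ℝ) : EmbedsWith X k D := by
  refine ⟨fun _ => 0, 1, one_pos, fun x hx y hy => ?_⟩
  simp [hX x hx y hy]

/-- pulling back an embedding along a similarity -/
theorem EmbedsWith.comp_similarity {E' : Type*} [PseudoMetricSpace E'] {X : Set E} {Y : Set E'}
    {k : ℕ} {D : ℝ} (h : EmbedsWith X k D) (φ : E' → E) (c : ℝ) (hc : 0 < c)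
    (hφ : ∀ x ∈ Y, ∀ y ∈ Y, dist (φ x) (φ y) = c * dist x y) (hmaps : ∀ x ∈ Y, φ x ∈ X) :
    EmbedsWith Y k D := by
  obtain ⟨f, a, ha, hf⟩ := h
  refine ⟨f ∘ φ, a * c, mul_pos ha hc, fun x hx y hy => ?_⟩
  have h1 := hf (φ x) (hmaps x hx) (φ y) (hmaps y hy)
  rw [hφ x hx y hy] at h1
  constructor
  · simpa [mul_assoc] using h1.1
  · simpa [mul_assoc] using h1.2

/-- normalisation: scale `1` and a prescribed point sent to `0` -/
theorem EmbedsWith.normalize {X : Set E} {k : ℕ} {D : ℝ} (h : EmbedsWith X k D) (x₀ : E) :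
    ∃ g : E → EuclideanSpace ℝ (Fin k), g x₀ = 0 ∧
      ∀ x ∈ X, ∀ y ∈ X, dist x y ≤ dist (g x) (g y) ∧ dist (g x) (g y) ≤ D * dist x y := by
  obtain ⟨f, a, ha, hf⟩ := h
  refine ⟨fun x => a⁻¹ • (f x - f x₀), by simp, fun x hx y hy => ?_⟩
  have h1 := hf x hx y hy
  have hd : dist (a⁻¹ • (f x - f x₀)) (a⁻¹ • (f y - f x₀)) = a⁻¹ * dist (f x) (f y) := by
    rw [dist_smul₀, Real.norm_of_nonneg (inv_nonneg.2 ha.le), dist_sub_right]
  simp only [hd]
  constructor
  · rw [le_inv_mul_iff₀ ha]; exact h1.1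
  · rw [inv_mul_le_iff₀ ha]; linarith [h1.2]

/-- compactness: if all finite subsets embed with the same dimension and distortion, so does the
whole set -/
theorem embedsWith_of_finite_subsets {X : Set E} {k : ℕ} {D : ℝ}
    (h : ∀ F : Finset E, (F : Set E) ⊆ X → EmbedsWith (F : Set E) k D) : EmbedsWith X k D := by
  classical
  by_cases hX : ∀ x ∈ X, ∀ y ∈ X, dist x y = 0
  · exact embedsWith_of_subsingleton hX k D
  push Not at hX
  obtain ⟨x₀, hx₀, x₁, hx₁, h01⟩ := hX
  have hdpos : 0 < dist x₀ x₁ := lt_of_le_of_ne dist_nonneg (Ne.symm h01)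
  -- `D ≥ 1`
  have hD : 1 ≤ D := by
    have h2 := h {x₀, x₁} (by
      intro z hz
      simp only [Finset.coe_insert, Finset.coe_singleton, Set.mem_insert_iff,
        Set.mem_singleton_iff] at hz
      rcases hz with rfl | rfl <;> assumption)
    obtain ⟨f, a, ha, hf⟩ := h2
    have h3 := hf x₀ (by simp) x₁ (by simp)
    have h4 : a * dist x₀ x₁ ≤ D * a * dist x₀ x₁ := h3.1.trans h3.2
    have h5 : 0 < a * dist x₀ x₁ := mul_pos ha hdpos
    nlinarith
  -- the compact set of candidate maps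
  let K : Set (E → EuclideanSpace ℝ (Fin k)) :=
    Set.pi Set.univ (fun x => closedBall (0 : EuclideanSpace ℝ (Fin k)) (D * dist x x₀))
  have hK : IsCompact K := isCompact_univ_pi (fun x => isCompact_closedBall _ _)
  let t : E × E → Set (E → EuclideanSpace ℝ (Fin k)) := fun p =>
    {f | p.1 ∈ X → p.2 ∈ X →
      (dist p.1 p.2 ≤ dist (f p.1) (f p.2) ∧ dist (f p.1) (f p.2) ≤ D * dist p.1 p.2)}
  have htc : ∀ p, IsClosed (t p) := by
    intro p
    by_cases hp : p.1 ∈ X ∧ p.2 ∈ X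
    · have hcont : Continuous (fun f : E → EuclideanSpace ℝ (Fin k) => dist (f p.1) (f p.2)) :=
        (continuous_apply p.1).dist (continuous_apply p.2)
      have : t p = {f | dist p.1 p.2 ≤ dist (f p.1) (f p.2)} ∩
          {f | dist (f p.1) (f p.2) ≤ D * dist p.1 p.2} := by
        ext f
        simp only [t, Set.mem_ofPred_eq, Set.mem_inter_iff]
        exact ⟨fun hf => hf hp.1 hp.2, fun hf _ _ => hf⟩
      rw [this]
      exact (isClosed_le continuous_const hcont).inter (isClosed_le hcont continuous_const)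
    · have : t p = Set.univ := by
        ext f
        simp only [t, Set.mem_ofPred_eq, Set.mem_univ, iff_true]
        intro h1 h2
        exact absurd ⟨h1, h2⟩ hp
      rw [this]
      exact isClosed_univ
  have hfin : ∀ u : Finset (E × E), (K ∩ ⋂ p ∈ u, t p).Nonempty := by
    intro u
    let F : Finset E := insert x₀ ((u.image Prod.fst ∪ u.image Prod.snd).filter (· ∈ X))
    have hFX : (F : Set E) ⊆ X := by
      intro z hz
      simp only [F, Finset.coe_insert, Set.mem_insert_iff, Finset.mem_coe, Finset.mem_filter] at hz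
      rcases hz with rfl | hz
      · exact hx₀
      · exact hz.2
    obtain ⟨g, hg0, hg⟩ := (h F hFX).normalize x₀
    have hx₀F : x₀ ∈ F := Finset.mem_insert_self _ _
    refine ⟨fun x => if x ∈ F then g x else 0, ?_, ?_⟩
    · intro x _
      simp only [mem_closedBall, dist_zero_right]
      by_cases hx : x ∈ F
      · simp only [hx, if_true]
        have := (hg x (by exact_mod_cast hx) x₀ (by exact_mod_cast hx₀F)).2
        rwa [hg0, dist_zero_right] at this
      · simp only [hx, if_false, norm_zero]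
        exact mul_nonneg (by linarith) dist_nonneg
    · simp only [Set.mem_iInter]
      intro p hp h1 h2
      have hp1 : p.1 ∈ F := by
        simp only [F, Finset.mem_insert, Finset.mem_filter, Finset.mem_union, Finset.mem_image]
        exact Or.inr ⟨Or.inl ⟨p, hp, rfl⟩, h1⟩
      have hp2 : p.2 ∈ F := by
        simp only [F, Finset.mem_insert, Finset.mem_filter, Finset.mem_union, Finset.mem_image]
        exact Or.inr ⟨Or.inr ⟨p, hp, rfl⟩, h2⟩
      simp only [hp1, hp2, if_true]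
      exact hg p.1 (by exact_mod_cast hp1) p.2 (by exact_mod_cast hp2)
  obtain ⟨f, _, hf⟩ := hK.inter_iInter_nonempty t htc hfin
  simp only [Set.mem_iInter] at hf
  refine ⟨f, 1, one_pos, fun x hx y hy => ?_⟩
  have := hf (x, y) hx hy
  simpa using this

/-- a subset of a doubling set is doubling, with the constant squared -/
theorem DoublingWith.subset {X F : Set E} {lam : ℕ} (h : DoublingWith X lam) (hF : F ⊆ X) :
    DoublingWith F (lam * lam) := by
  classical
  intro x hx r hr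
  obtain ⟨C₁, hC₁X, hC₁card, hC₁cov⟩ := h x (hF hx) r hr
  have h2 : ∀ c : E, ∃ C : Finset E, c ∈ X → ((C : Set E) ⊆ X ∧ C.card ≤ lam ∧
      X ∩ closedBall c (r / 2) ⊆ ⋃ c' ∈ C, closedBall c' (r / 2 / 2)) := by
    intro c
    by_cases hc : c ∈ X
    · obtain ⟨C, hC⟩ := h c hc (r / 2) (by linarith)
      exact ⟨C, fun _ => hC⟩
    · exact ⟨∅, fun hc' => absurd hc' hc⟩
  choose C₂ hC₂ using h2
  let S : Finset E := C₁.biUnion C₂
  have hScard : S.card ≤ lam * lam := by
    calc S.card ≤ ∑ c ∈ C₁, (C₂ c).card := Finset.card_biUnion_le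
      _ ≤ ∑ _c ∈ C₁, lam := Finset.sum_le_sum (fun c hc => (hC₂ c (hC₁X hc)).2.1)
      _ = C₁.card * lam := by simp
      _ ≤ lam * lam := Nat.mul_le_mul_right _ hC₁card
  let p : E → E := fun c' =>
    if hne : (F ∩ closedBall c' (r / 2 / 2)).Nonempty then hne.some else x
  have hpF : ∀ c', p c' ∈ F := by
    intro c'
    by_cases hne : (F ∩ closedBall c' (r / 2 / 2)).Nonempty
    · simp only [p, hne, dif_pos]; exact hne.some_mem.1
    · simp only [p, hne, dif_neg, not_false_eq_true]; exact hx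
  refine ⟨S.image p, ?_, (Finset.card_image_le).trans hScard, ?_⟩
  · intro z hz
    simp only [Finset.coe_image, Set.mem_image, Finset.mem_coe] at hz
    obtain ⟨c', _, rfl⟩ := hz
    exact hpF c'
  · rintro y ⟨hyF, hyx⟩
    have hy1 : y ∈ ⋃ c ∈ C₁, closedBall c (r / 2) := hC₁cov ⟨hF hyF, hyx⟩
    simp only [Set.mem_iUnion, exists_prop] at hy1
    obtain ⟨c, hcC₁, hyc⟩ := hy1
    have hy2 : y ∈ ⋃ c' ∈ C₂ c, closedBall c' (r / 2 / 2) :=
      (hC₂ c (hC₁X hcC₁)).2.2 ⟨hF hyF, hyc⟩
    simp only [Set.mem_iUnion, exists_prop] at hy2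
    obtain ⟨c', hc'C₂, hyc'⟩ := hy2
    have hne : (F ∩ closedBall c' (r / 2 / 2)).Nonempty := ⟨y, hyF, hyc'⟩
    have hpc' : p c' ∈ closedBall c' (r / 2 / 2) := by
      simp only [p, hne, dif_pos]; exact hne.some_mem.2
    simp only [Set.mem_iUnion, exists_prop]
    refine ⟨p c', Finset.mem_image.2 ⟨c', Finset.mem_biUnion.2 ⟨c, hcC₁, hc'C₂⟩, rfl⟩, ?_⟩
    rw [mem_closedBall] at hyc' hpc' ⊢
    have := dist_triangle_right y (p c') c'
    linarith

/-- similarities preserve the doubling constant -/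
theorem DoublingWith.image_similarity {E' : Type*} [PseudoMetricSpace E'] {F : Set E} {lam : ℕ}
    (h : DoublingWith F lam) (φ : E → E') (c : ℝ) (hc : 0 < c)
    (hφ : ∀ x y, dist (φ x) (φ y) = c * dist x y) : DoublingWith (φ '' F) lam := by
  classical
  rintro _ ⟨x, hx, rfl⟩ r hr
  obtain ⟨C, hCF, hCcard, hCcov⟩ := h x hx (r / c) (div_pos hr hc)
  refine ⟨C.image φ, ?_, (Finset.card_image_le).trans hCcard, ?_⟩
  · intro z hz
    simp only [Finset.coe_image, Set.mem_image, Finset.mem_coe] at hz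
    obtain ⟨c', hc', rfl⟩ := hz
    exact ⟨c', hCF hc', rfl⟩
  · rintro _ ⟨⟨y, hy, rfl⟩, hyx⟩
    rw [mem_closedBall, hφ] at hyx
    have hyx' : y ∈ F ∩ closedBall x (r / c) := by
      refine ⟨hy, ?_⟩
      rw [mem_closedBall, le_div_iff₀ hc]
      linarith
    have := hCcov hyx'
    simp only [Set.mem_iUnion, exists_prop] at this ⊢
    obtain ⟨c', hc'C, hyc'⟩ := this
    refine ⟨φ c', Finset.mem_image.2 ⟨c', hc'C, rfl⟩, ?_⟩
    rw [mem_closedBall] at hyc' ⊢
    rw [hφ]
    have : c * dist y c' ≤ c * (r / c / 2) := mul_le_mul_of_nonneg_left hyc' hc.le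
    have h3 : c * (r / c / 2) = r / 2 := by field_simp
    linarith

end general

end Vale.Agent.H56.LangPlaut
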