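import Mathlib

namespace Vale.Agent.H56.LangPlaut

/-- `DoublingWith X lam`: the subset `X` of the metric space `E`, with the induced metric, is
doubling with constant at most `lam`: every closed ball of `X` (centre in `X`, radius `r > 0`)
is covered by at most `lam` closed balls of radius `r / 2` whose centres lie in `X`. -/
def DoublingWith {E : Type*} [PseudoMetricSpace E] (X : Set E) (lam : ℕ) : Prop :=
  ∀ x ∈ X, ∀ r : ℝ, 0 < r → ∃ C : Finset E, (C : Set E) ⊆ X ∧ C.card ≤ lam ∧
    X ∩ Metric.closedBall x r ⊆ ⋃ c ∈ C, Metric.closedBall c (r / 2)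

/-- `EmbedsWith X k D`: the subset `X` of the metric space `E` admits a bi-Lipschitz embedding
into Euclidean space `ℝ^k` with distortion at most `D`: there are a map `f` and a scale `a > 0`
with `a * d(x,y) ≤ ‖f x - f y‖ ≤ D * a * d(x,y)` for all `x, y ∈ X`. -/
def EmbedsWith {E : Type*} [PseudoMetricSpace E] (X : Set E) (k : ℕ) (D : ℝ) : Prop :=
  ∃ (f : E → EuclideanSpace ℝ (Fin k)) (a : ℝ), 0 < a ∧
    ∀ x ∈ X, ∀ y ∈ X, a * dist x y ≤ dist (f x) (f y) ∧ dist (f x) (f y) ≤ D * a * dist x y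

end Vale.Agent.H56.LangPlaut

namespace Vale.Agent.H56.LangPlaut

/-- (LP) every doubling subset of `ℓ²` has a bi-Lipschitz embedding into some `ℝ^k`. -/
def LangPlaut : Prop :=
  ∀ X : Set (lp (fun _ : ℕ => ℝ) 2), (∃ lam : ℕ, DoublingWith X lam) →
    ∃ (k : ℕ) (D : ℝ), EmbedsWith X k D

/-- (LPc) every compact doubling subset of `ℓ²` has a bi-Lipschitz embedding into some `ℝ^k`. -/
def LangPlautCompact : Prop :=
  ∀ X : Set (lp (fun _ : ℕ => ℝ) 2), IsCompact X → (∃ lam : ℕ, DoublingWith X lam) →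
    ∃ (k : ℕ) (D : ℝ), EmbedsWith X k D

/-- (LPu) the dimension and the distortion can be chosen in terms of the doubling constant
alone. -/
def LangPlautUniform : Prop :=
  ∀ lam : ℕ, ∃ (k : ℕ) (D : ℝ), ∀ X : Set (lp (fun _ : ℕ => ℝ) 2),
    DoublingWith X lam → EmbedsWith X k D

end Vale.Agent.H56.LangPlaut
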