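import Vale.Agent.H56.LangPlaut.Main

namespace Vale.Agent.H56.LangPlaut

/-- (LPf) the finite quantitative form: for every `lam` there are `k` and `D`, depending on `lam`
only, such that every finite subset of `ℓ²` with doubling constant at most `lam` embeds into
`ℝ^k` with distortion at most `D`. -/
def LangPlautFinite : Prop :=
  ∀ lam : ℕ, ∃ (k : ℕ) (D : ℝ), ∀ F : Finset (lp (fun _ : ℕ => ℝ) 2),
    DoublingWith (F : Set (lp (fun _ : ℕ => ℝ) 2)) lam →
      EmbedsWith (F : Set (lp (fun _ : ℕ => ℝ) 2)) k D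

theorem finite_of_uniform (h : LangPlautUniform) : LangPlautFinite := by
  intro lam
  obtain ⟨k, D, hkD⟩ := h lam
  exact ⟨k, D, fun F hF => hkD _ hF⟩

theorem uniform_of_finite (h : LangPlautFinite) : LangPlautUniform := by
  intro lam
  obtain ⟨k, D, hkD⟩ := h (lam * lam)
  refine ⟨k, D, fun X hX => ?_⟩
  apply embedsWith_of_finite_subsets
  intro F hF
  exact hkD F (hX.subset hF)

end Vale.Agent.H56.LangPlaut
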