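import Vale.Agent.H56.LangPlaut.Basic

namespace Vale.Agent.H56.LangPlaut

open Metric Set

section glue

variable {E : Type*} [NormedAddCommGroup E] [NormedSpace ℝ E]

/-- scaling factor of the `j`-th piece -/
noncomputable def gscale (F : ℕ → Finset E) (b : ℕ → E) (j : ℕ) : ℝ :=
  (1 / 2 : ℝ) ^ j / (16 * (1 + ∑ x ∈ F j, ‖x - b j‖))

/-- similarity placing the `j`-th piece near `(1/2)^j • e` -/
noncomputable def gmap (F : ℕ → Finset E) (b : ℕ → E) (e : E) (j : ℕ) (x : E) : E :=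
  (1 / 2 : ℝ) ^ j • e + gscale F b j • (x - b j)

/-- the `j`-th piece -/
def gpiece (F : ℕ → Finset E) (b : ℕ → E) (e : E) (j : ℕ) : Set E :=
  gmap F b e j '' (F j : Set E)

/-- the glued set -/
def gset (F : ℕ → Finset E) (b : ℕ → E) (e : E) : Set E :=
  {0} ∪ ⋃ j, gpiece F b e j

variable (F : ℕ → Finset E) (b : ℕ → E) (e : E)

theorem gsum_nonneg (j : ℕ) : 0 ≤ ∑ x ∈ F j, ‖x - b j‖ :=
  Finset.sum_nonneg (fun _ _ => norm_nonneg _)

theorem gscale_pos (j : ℕ) : 0 < gscale F b j := by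
  unfold gscale
  have := gsum_nonneg F b j
  positivity

theorem gmap_dist (j : ℕ) (x y : E) :
    dist (gmap F b e j x) (gmap F b e j y) = gscale F b j * dist x y := by
  unfold gmap
  rw [dist_add_left, dist_smul₀, Real.norm_of_nonneg (gscale_pos F b j).le, dist_sub_right]

theorem gmap_near {j : ℕ} {x : E} (hx : x ∈ F j) :
    ‖gmap F b e j x - (1 / 2 : ℝ) ^ j • e‖ ≤ (1 / 2 : ℝ) ^ j / 16 := by
  unfold gmap
  rw [add_sub_cancel_left, norm_smul, Real.norm_of_nonneg (gscale_pos F b j).le]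
  have h1 : ‖x - b j‖ ≤ ∑ x ∈ F j, ‖x - b j‖ :=
    Finset.single_le_sum (f := fun x => ‖x - b j‖) (fun _ _ => norm_nonneg _) hx
  have h2 := gsum_nonneg F b j
  unfold gscale
  have hp : (0 : ℝ) < (1 / 2 : ℝ) ^ j := by positivity
  rw [div_mul_eq_mul_div, div_le_div_iff₀ (by positivity) (by norm_num)]
  have h3 : ‖x - b j‖ ≤ 1 + ∑ x ∈ F j, ‖x - b j‖ := by linarith
  nlinarith [mul_le_mul_of_nonneg_left h3 hp.le]

theorem gpiece_near {j : ℕ} {y : E} (hy : y ∈ gpiece F b e j) :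
    ‖y - (1 / 2 : ℝ) ^ j • e‖ ≤ (1 / 2 : ℝ) ^ j / 16 := by
  obtain ⟨x, hx, rfl⟩ := hy
  exact gmap_near F b e (by exact_mod_cast hx)

variable {e}

theorem gcenter_norm (he : ‖e‖ = 1) (j : ℕ) : ‖(1 / 2 : ℝ) ^ j • e‖ = (1 / 2 : ℝ) ^ j := by
  rw [norm_smul, he, mul_one, Real.norm_of_nonneg (by positivity)]

theorem gpiece_norm_le (he : ‖e‖ = 1) {j : ℕ} {y : E} (hy : y ∈ gpiece F b e j) :
    ‖y‖ ≤ 17 / 16 * (1 / 2 : ℝ) ^ j := by
  have h1 := gpiece_near F b e hy
  have h2 : ‖y‖ ≤ ‖y - (1 / 2 : ℝ) ^ j • e‖ + ‖(1 / 2 : ℝ) ^ j • e‖ := by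
    have := norm_add_le (y - (1 / 2 : ℝ) ^ j • e) ((1 / 2 : ℝ) ^ j • e)
    simpa using this
  rw [gcenter_norm he] at h2
  linarith

theorem gpiece_norm_ge (he : ‖e‖ = 1) {j : ℕ} {y : E} (hy : y ∈ gpiece F b e j) :
    15 / 16 * (1 / 2 : ℝ) ^ j ≤ ‖y‖ := by
  have h1 := gpiece_near F b e hy
  have h2 : ‖(1 / 2 : ℝ) ^ j • e‖ ≤ ‖y‖ + ‖y - (1 / 2 : ℝ) ^ j • e‖ := by
    have := norm_sub_le y (y - (1 / 2 : ℝ) ^ j • e)
    simpa using this
  rw [gcenter_norm he] at h2
  linarith

theorem gcenter_mem (hb : ∀ j, b j ∈ F j) (j : ℕ) : (1 / 2 : ℝ) ^ j • e ∈ gpiece F b e j := by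
  refine ⟨b j, by exact_mod_cast hb j, ?_⟩
  simp [gmap]

theorem gpiece_subset (j : ℕ) : gpiece F b e j ⊆ gset F b e := by
  intro y hy
  exact Or.inr (Set.mem_iUnion.2 ⟨j, hy⟩)

theorem gzero_mem : (0 : E) ∈ gset F b e := Or.inl rfl

theorem half_pow_succ_le {i j : ℕ} (h : j < i) : (1 / 2 : ℝ) ^ i ≤ (1 / 2 : ℝ) ^ j / 2 := by
  have h1 : (1 / 2 : ℝ) ^ i ≤ (1 / 2 : ℝ) ^ (j + 1) :=
    pow_le_pow_of_le_one (by norm_num) (by norm_num) h
  have h2 : (1 / 2 : ℝ) ^ (j + 1) = (1 / 2 : ℝ) ^ j / 2 := by rw [pow_succ]; ring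
  linarith

/-- a small ball around a point of the `j`-th piece meets only that piece -/
theorem gset_small_ball (he : ‖e‖ = 1) {j : ℕ} {x : E} (hx : x ∈ gpiece F b e j) {r : ℝ}
    (hr : r < (1 / 2 : ℝ) ^ j / 4) :
    gset F b e ∩ closedBall x r ⊆ gpiece F b e j := by
  rintro y ⟨hy, hyx⟩
  rw [mem_closedBall, dist_eq_norm] at hyx
  have hxle := gpiece_norm_le F b he hx
  have hxge := gpiece_norm_ge F b he hx
  have hp : (0 : ℝ) < (1 / 2 : ℝ) ^ j := by positivity
  have hn1 : ‖x‖ - ‖y‖ ≤ ‖y - x‖ := by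
    have := norm_sub_norm_le x y
    rwa [norm_sub_rev] at this
  have hn2 : ‖y‖ - ‖x‖ ≤ ‖y - x‖ := norm_sub_norm_le y x
  rcases hy with hy | hy
  · rw [Set.mem_singleton_iff] at hy
    subst hy
    rw [norm_zero] at hn1
    linarith
  · obtain ⟨i, hi⟩ := Set.mem_iUnion.1 hy
    have hyle := gpiece_norm_le F b he hi
    have hyge := gpiece_norm_ge F b he hi
    rcases lt_trichotomy i j with hij | hij | hij
    · have := half_pow_succ_le hij
      have hpi : (0 : ℝ) < (1 / 2 : ℝ) ^ i := by positivity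
      linarith
    · rw [← hij]; exact hi
    · have := half_pow_succ_le hij
      linarith

theorem gpiece_doubling {μ : ℕ} (hF : ∀ j, DoublingWith (F j : Set E) μ) (j : ℕ) :
    DoublingWith (gpiece F b e j) μ :=
  (hF j).image_similarity (gmap F b e j) (gscale F b j) (gscale_pos F b j) (gmap_dist F b e j)

/-- the glued set is doubling -/
theorem gset_doubling (he : ‖e‖ = 1) (hb : ∀ j, b j ∈ F j) {μ : ℕ}
    (hF : ∀ j, DoublingWith (F j : Set E) μ) : DoublingWith (gset F b e) (μ + 6) := by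
  classical
  intro x hx r hr
  by_cases hc : ∃ j, x ∈ gpiece F b e j ∧ r < (1 / 2 : ℝ) ^ j / 4
  · obtain ⟨j, hxj, hrj⟩ := hc
    obtain ⟨C, hCsub, hCcard, hCcov⟩ := gpiece_doubling F b hF j x hxj r hr
    refine ⟨C, hCsub.trans (gpiece_subset F b j), hCcard.trans (Nat.le_add_right _ _), ?_⟩
    intro y hy
    exact hCcov ⟨gset_small_ball F b he hxj hrj hy, hy.2⟩
  · -- large ball
    have hxnorm : ‖x‖ ≤ 17 / 4 * r := by
      rcases hx with hx | hx
      · rw [Set.mem_singleton_iff] at hx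
        subst hx
        rw [norm_zero]; positivity
      · obtain ⟨j, hj⟩ := Set.mem_iUnion.1 hx
        have h1 := gpiece_norm_le F b he hj
        have h2 : (1 / 2 : ℝ) ^ j / 4 ≤ r := by
          by_contra hcon
          exact hc ⟨j, hj, lt_of_not_ge hcon⟩
        linarith
    have hex : ∃ i : ℕ, (1 / 2 : ℝ) ^ i ≤ r / 4 := by
      obtain ⟨i, hi⟩ := exists_pow_lt_of_lt_one (show (0 : ℝ) < r / 4 by positivity)
        (show (1 / 2 : ℝ) < 1 by norm_num)
      exact ⟨i, hi.le⟩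
    let m : ℕ := Nat.find hex
    have hm : (1 / 2 : ℝ) ^ m ≤ r / 4 := Nat.find_spec hex
    have hmin : ∀ i, i < m → r / 4 < (1 / 2 : ℝ) ^ i := fun i hi =>
      lt_of_not_ge (Nat.find_min hex hi)
    refine ⟨insert 0 ((Finset.Ico (m - 5) m).image (fun i => (1 / 2 : ℝ) ^ i • e)), ?_, ?_, ?_⟩
    · intro z hz
      simp only [Finset.coe_insert, Finset.coe_image, Set.mem_insert_iff, Set.mem_image,
        Finset.mem_coe] at hz
      rcases hz with rfl | ⟨i, _, rfl⟩
      · exact gzero_mem F b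
      · exact gpiece_subset F b i (gcenter_mem F b hb i)
    · calc (insert 0 ((Finset.Ico (m - 5) m).image (fun i => (1 / 2 : ℝ) ^ i • e))).card
          ≤ ((Finset.Ico (m - 5) m).image (fun i => (1 / 2 : ℝ) ^ i • e)).card + 1 :=
            Finset.card_insert_le _ _
        _ ≤ (Finset.Ico (m - 5) m).card + 1 := Nat.add_le_add_right Finset.card_image_le _
        _ ≤ μ + 6 := by
            rw [Nat.card_Ico]
            omega
    · rintro y ⟨hy, hyx⟩
      rw [mem_closedBall, dist_eq_norm] at hyx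
      have hynorm : ‖y‖ ≤ 21 / 4 * r := by
        have : ‖y‖ ≤ ‖y - x‖ + ‖x‖ := by
          have := norm_add_le (y - x) x
          simpa using this
        linarith
      simp only [Set.mem_iUnion, exists_prop]
      rcases hy with hy | hy
      · rw [Set.mem_singleton_iff] at hy
        subst hy
        refine ⟨0, Finset.mem_insert_self _ _, ?_⟩
        rw [mem_closedBall, dist_self]; positivity
      · obtain ⟨i, hi⟩ := Set.mem_iUnion.1 hy
        have hyle := gpiece_norm_le F b he hi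
        have hyge := gpiece_norm_ge F b he hi
        by_cases him : m ≤ i
        · refine ⟨0, Finset.mem_insert_self _ _, ?_⟩
          rw [mem_closedBall, dist_zero_right]
          have : (1 / 2 : ℝ) ^ i ≤ (1 / 2 : ℝ) ^ m :=
            pow_le_pow_of_le_one (by norm_num) (by norm_num) him
          linarith
        · have him' : i < m := lt_of_not_ge him
          have hi5 : m - 5 ≤ i := by
            by_contra hcon
            have h5 : i + 5 < m := by omega
            have h6 := hmin (i + 5) h5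
            have h7 : (1 / 2 : ℝ) ^ (i + 5) = (1 / 2 : ℝ) ^ i / 32 := by
              rw [pow_add]; norm_num; ring
            rw [h7] at h6
            linarith
          refine ⟨(1 / 2 : ℝ) ^ i • e, Finset.mem_insert_of_mem
            (Finset.mem_image.2 ⟨i, Finset.mem_Ico.2 ⟨hi5, him'⟩, rfl⟩), ?_⟩
          rw [mem_closedBall, dist_eq_norm]
          have := gpiece_near F b e hi
          linarith

/-- the glued set is compact -/
theorem gset_compact (he : ‖e‖ = 1) : IsCompact (gset F b e) := by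
  classical
  apply isCompact_of_finite_subcover
  intro ι U hUo hXU
  obtain ⟨i₀, hi₀⟩ := Set.mem_iUnion.1 (hXU (gzero_mem F b))
  obtain ⟨ε, hε, hball⟩ := Metric.isOpen_iff.1 (hUo i₀) 0 hi₀
  obtain ⟨N, hN⟩ := exists_pow_lt_of_lt_one (show (0 : ℝ) < ε / 2 by positivity)
    (show (1 / 2 : ℝ) < 1 by norm_num)
  have hfin : (⋃ j ∈ Finset.range N, gpiece F b e j).Finite := by
    apply Set.Finite.biUnion (Finset.finite_toSet _)
    intro j _
    exact (Finset.finite_toSet (F j)).image _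
  have hsub : (⋃ j ∈ Finset.range N, gpiece F b e j) ⊆ ⋃ i, U i := by
    intro y hy
    simp only [Set.mem_iUnion, exists_prop] at hy
    obtain ⟨j, _, hj⟩ := hy
    exact hXU (gpiece_subset F b j hj)
  obtain ⟨t, ht⟩ := hfin.isCompact.elim_finite_subcover U hUo hsub
  refine ⟨insert i₀ t, ?_⟩
  intro y hy
  simp only [Set.mem_iUnion, exists_prop]
  rcases hy with hy | hy
  · rw [Set.mem_singleton_iff] at hy
    subst hy
    exact ⟨i₀, Finset.mem_insert_self _ _, hi₀⟩
  · obtain ⟨j, hj⟩ := Set.mem_iUnion.1 hy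
    by_cases hjN : j < N
    · have : y ∈ ⋃ i ∈ t, U i := ht (by
        simp only [Set.mem_iUnion, exists_prop]
        exact ⟨j, Finset.mem_range.2 hjN, hj⟩)
      simp only [Set.mem_iUnion, exists_prop] at this
      obtain ⟨i, hit, hyi⟩ := this
      exact ⟨i, Finset.mem_insert_of_mem hit, hyi⟩
    · refine ⟨i₀, Finset.mem_insert_self _ _, hball ?_⟩
      rw [mem_ball, dist_zero_right]
      have h1 := gpiece_norm_le F b he hj
      have h2 : (1 / 2 : ℝ) ^ j ≤ (1 / 2 : ℝ) ^ N :=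
        pow_le_pow_of_le_one (by norm_num) (by norm_num) (le_of_not_gt hjN)
      linarith

end glue

end Vale.Agent.H56.LangPlaut
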