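import Vale.Agent.H56.LangPlaut.Glue

namespace Vale.Agent.H56.LangPlaut

open Metric Set

theorem exists_unit_vector_l2 : ∃ e : lp (fun _ : ℕ => ℝ) 2, ‖e‖ = 1 := by
  refine ⟨lp.single 2 0 (1 : ℝ), ?_⟩
  rw [lp.norm_single (by norm_num)]
  simp

/-- If every compact doubling subset of `ℓ²` embeds bi-Lipschitzly into some `ℝ^k`, then for
every `lam` there are `k` and `D` working for all subsets of `ℓ²` with doubling constant at most
`lam`. -/
theorem uniform_of_compact
    (h : ∀ X : Set (lp (fun _ : ℕ => ℝ) 2), IsCompact X → (∃ lam : ℕ, DoublingWith X lam) →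
      ∃ (k : ℕ) (D : ℝ), EmbedsWith X k D) :
    ∀ lam : ℕ, ∃ (k : ℕ) (D : ℝ), ∀ X : Set (lp (fun _ : ℕ => ℝ) 2),
      DoublingWith X lam → EmbedsWith X k D := by
  classical
  intro lam
  have hfin : ∃ (k : ℕ) (N : ℕ), ∀ F : Finset (lp (fun _ : ℕ => ℝ) 2),
      DoublingWith (F : Set (lp (fun _ : ℕ => ℝ) 2)) (lam * lam) →
        EmbedsWith (F : Set (lp (fun _ : ℕ => ℝ) 2)) k (N : ℝ) := by
    by_contra hcon
    push Not at hcon
    choose G hGd hGn using hcon
    let F : ℕ → Finset (lp (fun _ : ℕ => ℝ) 2) := fun j => G (Nat.unpair j).1 (Nat.unpair j).2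
    have hne : ∀ j, (F j).Nonempty := by
      intro j
      by_contra hemp
      rw [Finset.not_nonempty_iff_eq_empty] at hemp
      apply hGn (Nat.unpair j).1 (Nat.unpair j).2
      apply embedsWith_of_subsingleton
      intro x hx
      have hx' : x ∈ F j := by exact_mod_cast hx
      rw [hemp] at hx'
      exact absurd hx' (Finset.notMem_empty x)
    choose b hb using hne
    obtain ⟨e, he⟩ := exists_unit_vector_l2
    obtain ⟨k, D, hemb⟩ := h (gset F b e) (gset_compact F b he)
      ⟨lam * lam + 6, gset_doubling F b he hb (fun j => hGd _ _)⟩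
    obtain ⟨N, hN⟩ := exists_nat_ge D
    have hemb' := hemb.mono_D hN
    have hj : F (Nat.pair k N) = G k N := by
      simp only [F, Nat.unpair_pair]
    have hpiece : EmbedsWith (F (Nat.pair k N) : Set (lp (fun _ : ℕ => ℝ) 2)) k (N : ℝ) :=
      hemb'.comp_similarity (gmap F b e (Nat.pair k N)) (gscale F b (Nat.pair k N))
        (gscale_pos F b _) (fun x _ y _ => gmap_dist F b e _ x y)
        (fun x hx => gpiece_subset F b _ ⟨x, hx, rfl⟩)
    rw [hj] at hpiece
    exact hGn k N hpiece
  obtain ⟨k, N, hkN⟩ := hfin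
  exact ⟨k, N, fun X hX => embedsWith_of_finite_subsets (fun F hF => hkN F (hX.subset hF))⟩

end Vale.Agent.H56.LangPlaut
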